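import Vale.Agent.Lib.P037.Defs
import Vale.Agent.Lib.P037.Blow.BaseCount

/-!
MODULE Q2 (P037 Robust).  FROZEN statement.  Changing few entries of the host destroys few copies.

ROUTE.  A copy `p = (f, g)` of `H` in `A0` which is not a copy in `A` has some `(a, b)` with
`A (f a) (g b) ≠ A0 (f a) (g b)` (otherwise all entries agree with `H`).  Hence
`{copies in A0} ⊆ {copies in A} ∪ ⋃ (a, b), Bad a b`, `Bad a b := {p | A (p.1 a) (p.2 b) ≠ A0 (p.1 a) (p.2 b)}`
(all pairs of functions, no monotonicity needed).  For fixed `(a, b)`: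
`Bad a b` has exactly `numDiff A A0 * n ^ (k - 1) * n ^ (k - 1)` elements: `p ↦ ((p.1 a, p.2 b), rest)`;
e.g. `(Fin k → Fin n) ≃ Fin n × ({x // x ≠ a} → Fin n)` (`Equiv.funSplitAt a`), or use an injection of `Bad a b` into
`{q | A q.1 q.2 ≠ A0 q.1 q.2} ×ˢ univ` with `univ : Set (({x // x ≠ a} → Fin n) × ({x // x ≠ b} → Fin n))`,
whose `ncard` is `numDiff A A0 * (n ^ (k - 1) * n ^ (k - 1))` (`Set.ncard_prod`, `Fintype.card_fun`,
`Fintype.card_subtype_compl` / `Fintype.card_subtype_ne`-type lemma: `card {x : Fin k // x ≠ a} = k - 1`).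
`n ^ (k - 1) * n ^ (k - 1) = n ^ (2 * k - 2)`.  Union bound over the `k ^ 2` pairs `(a, b)`
(`Set.ncard_union_le`, `Finset.card_biUnion_le` after `Set.toFinset`, or induction).
-/

namespace Vale.Agent.Lib.P037.Robust

open Vale.Agent.Lib.P037

private theorem card_bad_aux {k n : ℕ} (A A0 : Fin n → Fin n → Bool) (a b : Fin k) :
    Set.ncard {p : (Fin k → Fin n) × (Fin k → Fin n) | A (p.1 a) (p.2 b) ≠ A0 (p.1 a) (p.2 b)}
      ≤ numDiff A A0 * n ^ (2 * k - 2) := by
  classical
  let T : Set ((Fin n × Fin n) × (({x : Fin k // x ≠ a} → Fin n) × ({x : Fin k // x ≠ b} → Fin n))) :=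
    {q : Fin n × Fin n | A q.1 q.2 ≠ A0 q.1 q.2} ×ˢ Set.univ
  let φ : (Fin k → Fin n) × (Fin k → Fin n) →
      ((Fin n × Fin n) × (({x : Fin k // x ≠ a} → Fin n) × ({x : Fin k // x ≠ b} → Fin n))) :=
    fun p => ((p.1 a, p.2 b), (fun x => p.1 x.1, fun x => p.2 x.1))
  have hle : Set.ncard {p : (Fin k → Fin n) × (Fin k → Fin n) |
      A (p.1 a) (p.2 b) ≠ A0 (p.1 a) (p.2 b)} ≤ T.ncard := by
    apply Set.ncard_le_ncard_of_injOn φ
    · intro p hp
      exact ⟨hp, Set.mem_univ _⟩
    · intro p _ q _ hpq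
      have h1 : p.1 a = q.1 a := congrArg (fun z => z.1.1) hpq
      have h2 : p.2 b = q.2 b := congrArg (fun z => z.1.2) hpq
      have h3 : (fun x : {x : Fin k // x ≠ a} => p.1 x.1) = fun x => q.1 x.1 :=
        congrArg (fun z => z.2.1) hpq
      have h4 : (fun x : {x : Fin k // x ≠ b} => p.2 x.1) = fun x => q.2 x.1 :=
        congrArg (fun z => z.2.2) hpq
      apply Prod.ext
      · funext x
        by_cases hx : x = a
        · rw [hx]; exact h1
        · exact congrFun h3 ⟨x, hx⟩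
      · funext x
        by_cases hx : x = b
        · rw [hx]; exact h2
        · exact congrFun h4 ⟨x, hx⟩
  have hT : T.ncard = numDiff A A0 * n ^ (2 * k - 2) := by
    have hca : Fintype.card {x : Fin k // x ≠ a} = k - 1 := by
      simp [Fintype.card_subtype_compl]
    have hcb : Fintype.card {x : Fin k // x ≠ b} = k - 1 := by
      simp [Fintype.card_subtype_compl]
    have hu : (Set.univ : Set (({x : Fin k // x ≠ a} → Fin n) × ({x : Fin k // x ≠ b} → Fin n))).ncard
        = n ^ (2 * k - 2) := by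
      rw [Set.ncard_univ, Nat.card_eq_fintype_card, Fintype.card_prod, Fintype.card_fun,
        Fintype.card_fun, hca, hcb, Fintype.card_fin, ← pow_add]
      congr 1
      omega
    show Set.ncard (_ ×ˢ _) = _
    rw [Set.ncard_prod, hu]
    rfl
  exact hle.trans hT.le

theorem numCopies_perturb {k n : ℕ} (H : Fin k → Fin k → Bool) (A A0 : Fin n → Fin n → Bool) :
    numCopies H A0 ≤ numCopies H A + k ^ 2 * (numDiff A A0 * n ^ (2 * k - 2)) := by
  classical
  let Bad : Fin k × Fin k → Set ((Fin k → Fin n) × (Fin k → Fin n)) :=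
    fun ab => {p | A (p.1 ab.1) (p.2 ab.2) ≠ A0 (p.1 ab.1) (p.2 ab.2)}
  have hsub : {p : (Fin k → Fin n) × (Fin k → Fin n) | IsCopy H A0 p} ⊆
      {p | IsCopy H A p} ∪ ⋃ ab : Fin k × Fin k, Bad ab := by
    intro p hp
    by_cases hq : IsCopy H A p
    · exact Or.inl hq
    · right
      by_contra hno
      apply hq
      refine ⟨hp.1, hp.2.1, fun i j => ?_⟩
      by_contra hij
      apply hno
      refine Set.mem_iUnion.2 ⟨(i, j), ?_⟩
      show A (p.1 i) (p.2 j) ≠ A0 (p.1 i) (p.2 j)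
      intro h
      exact hij (h.trans (hp.2.2 i j))
  have hU : (⋃ ab : Fin k × Fin k, Bad ab).ncard ≤ k ^ 2 * (numDiff A A0 * n ^ (2 * k - 2)) := by
    have h1 : (⋃ ab : Fin k × Fin k, Bad ab).ncard ≤ ∑ ab : Fin k × Fin k, (Bad ab).ncard := by
      have h2 : (⋃ ab : Fin k × Fin k, Bad ab) =
          ((Finset.univ : Finset (Fin k × Fin k)).biUnion fun ab => (Bad ab).toFinset : Finset _) := by
        ext p
        simp
      rw [h2, Set.ncard_coe_finset]
      refine Finset.card_biUnion_le.trans (le_of_eq ?_)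
      refine Finset.sum_congr rfl fun ab _ => ?_
      rw [Set.ncard_eq_toFinset_card']
    refine h1.trans ?_
    calc ∑ ab : Fin k × Fin k, (Bad ab).ncard
        ≤ ∑ _ab : Fin k × Fin k, numDiff A A0 * n ^ (2 * k - 2) :=
          Finset.sum_le_sum fun ab _ => card_bad_aux A A0 ab.1 ab.2
      _ = k ^ 2 * (numDiff A A0 * n ^ (2 * k - 2)) := by
          rw [Finset.sum_const, Finset.card_univ, Fintype.card_prod, Fintype.card_fin, smul_eq_mul, sq]
  calc numCopies H A0 = Set.ncard {p : (Fin k → Fin n) × (Fin k → Fin n) | IsCopy H A0 p} := rfl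
    _ ≤ ({p | IsCopy H A p} ∪ ⋃ ab : Fin k × Fin k, Bad ab).ncard :=
        Set.ncard_le_ncard hsub (Set.toFinite _)
    _ ≤ Set.ncard {p : (Fin k → Fin n) × (Fin k → Fin n) | IsCopy H A p}
          + (⋃ ab : Fin k × Fin k, Bad ab).ncard := Set.ncard_union_le _ _
    _ ≤ numCopies H A + k ^ 2 * (numDiff A A0 * n ^ (2 * k - 2)) := Nat.add_le_add_left hU _

end Vale.Agent.Lib.P037.Robust
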