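import Vale.Agent.Lib.P037.Robust.CopyPerturb
import Vale.Agent.Lib.P037.Rect.Final

/-!
P037 Robust: every pattern, hosts that are polynomially close to a host with few distinct rows or columns.
-/

namespace Vale.Agent.Lib.P037.Robust

open Vale.Agent.Lib.P037 Vale.Agent.Lib.P037.BV Vale.Agent.Lib.P037.Rect

theorem isFar_perturb {k n : ℕ} (H : Fin k → Fin k → Bool) (A A0 : Fin n → Fin n → Bool) (ε : ℝ)
    (hfar : IsFar H A ε) (h : (numDiff A A0 : ℝ) ≤ ε / 2 * (n : ℝ) ^ 2) : IsFar H A0 (ε / 2) := by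
  intro B hB
  have h1 := hfar B hB
  have h2 : (numDiff A B : ℝ) ≤ (numDiff A A0 : ℝ) + (numDiff A0 B : ℝ) := by
    exact_mod_cast numDiff_triangle A A0 B
  nlinarith

theorem few_lines_robust {k : ℕ} (hk : 1 ≤ k) (H : Fin k → Fin k → Bool) :
    ∃ (c : ℝ) (C : ℕ), 0 < c ∧ ∀ n T : ℕ, 1 ≤ n → 1 ≤ T → ∀ (A A0 : Fin n → Fin n → Bool)
      (t : Fin n → Fin T),
      ((∀ i i', t i = t i' → ∀ j, A0 i j = A0 i' j) ∨
        (∀ j j', t j = t j' → ∀ i, A0 i j = A0 i j')) →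
      ∀ ε : ℝ, 0 < ε → ε < 1 → (numDiff A A0 : ℝ) ≤ c * (ε / T) ^ C * (n : ℝ) ^ 2 → IsFar H A ε →
      c * (ε / T) ^ C * (n : ℝ) ^ (2 * k) ≤ (numCopies H A : ℝ) := by
  obtain ⟨c1, C1, hc1, h⟩ := few_lines_all hk H
  have hkR : (1 : ℝ) ≤ k := by exact_mod_cast hk
  set d : ℝ := c1 / 2 ^ C1 with hd
  have hdpos : 0 < d := by positivity
  set c : ℝ := min (1 / 2) (d / (2 * (k : ℝ) ^ 2)) with hc
  have hcpos : 0 < c := lt_min (by norm_num) (by positivity)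
  have hc_half : c ≤ 1 / 2 := min_le_left _ _
  have hc_d : c ≤ d / (2 * (k : ℝ) ^ 2) := min_le_right _ _
  have hk2 : (1 : ℝ) ≤ (k : ℝ) ^ 2 := one_le_pow₀ hkR
  have hkc : (k : ℝ) ^ 2 * c ≤ d / 2 := by
    have : (k : ℝ) ^ 2 * c ≤ (k : ℝ) ^ 2 * (d / (2 * (k : ℝ) ^ 2)) :=
      mul_le_mul_of_nonneg_left hc_d (by positivity)
    have h2 : (k : ℝ) ^ 2 * (d / (2 * (k : ℝ) ^ 2)) = d / 2 := by field_simp
    linarith
  have hcd2 : c ≤ d / 2 := by nlinarith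
  refine ⟨c, C1 + 1, hcpos, ?_⟩
  intro n T hn hT A A0 t ht ε hε hε1 hclose hfar
  have hTR : (1 : ℝ) ≤ T := by exact_mod_cast hT
  have hnR : (1 : ℝ) ≤ n := by exact_mod_cast hn
  set x : ℝ := ε / T with hx
  have hx0 : 0 < x := by positivity
  have hxε : x ≤ ε := div_le_self hε.le hTR
  have hx1 : x ≤ 1 := by linarith
  have hxC : x ^ (C1 + 1) ≤ x ^ C1 := pow_le_pow_of_le_one hx0.le hx1 (Nat.le_succ _)
  have hxC' : x ^ (C1 + 1) ≤ x := by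
    calc x ^ (C1 + 1) = x ^ C1 * x := pow_succ x C1
      _ ≤ 1 * x := mul_le_mul_of_nonneg_right (pow_le_one₀ hx0.le hx1) hx0.le
      _ = x := one_mul x
  have hn2 : (0 : ℝ) ≤ (n : ℝ) ^ 2 := by positivity
  have hclose2 : (numDiff A A0 : ℝ) ≤ ε / 2 * (n : ℝ) ^ 2 := by
    refine hclose.trans ?_
    apply mul_le_mul_of_nonneg_right _ hn2
    calc c * x ^ (C1 + 1) ≤ 1 / 2 * x := mul_le_mul hc_half hxC' (by positivity) (by norm_num)
      _ ≤ ε / 2 := by linarith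
  have hfar0 := isFar_perturb H A A0 ε hfar hclose2
  have h0 := h n T hn hT A0 t ht (ε / 2) (by linarith) (by linarith) hfar0
  have hrew : c1 * (ε / 2 / T) ^ C1 = d * x ^ C1 := by
    have : ε / 2 / T = x / 2 := by rw [hx]; ring
    rw [this, div_pow, hd]; ring
  rw [hrew] at h0
  have hp : (numCopies H A0 : ℝ)
      ≤ (numCopies H A : ℝ) + (k : ℝ) ^ 2 * ((numDiff A A0 : ℝ) * (n : ℝ) ^ (2 * k - 2)) := by
    exact_mod_cast numCopies_perturb H A A0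
  have hnpow : (n : ℝ) ^ 2 * (n : ℝ) ^ (2 * k - 2) = (n : ℝ) ^ (2 * k) := by
    rw [← pow_add]; congr 1; omega
  have hloss : (k : ℝ) ^ 2 * ((numDiff A A0 : ℝ) * (n : ℝ) ^ (2 * k - 2))
      ≤ d / 2 * x ^ C1 * (n : ℝ) ^ (2 * k) := by
    have h1 : (numDiff A A0 : ℝ) * (n : ℝ) ^ (2 * k - 2)
        ≤ c * x ^ (C1 + 1) * (n : ℝ) ^ (2 * k) := by
      calc (numDiff A A0 : ℝ) * (n : ℝ) ^ (2 * k - 2)
          ≤ (c * x ^ (C1 + 1) * (n : ℝ) ^ 2) * (n : ℝ) ^ (2 * k - 2) :=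
            mul_le_mul_of_nonneg_right hclose (by positivity)
        _ = c * x ^ (C1 + 1) * (n : ℝ) ^ (2 * k) := by rw [mul_assoc, hnpow]
    calc (k : ℝ) ^ 2 * ((numDiff A A0 : ℝ) * (n : ℝ) ^ (2 * k - 2))
        ≤ (k : ℝ) ^ 2 * (c * x ^ (C1 + 1) * (n : ℝ) ^ (2 * k)) :=
          mul_le_mul_of_nonneg_left h1 (by positivity)
      _ = ((k : ℝ) ^ 2 * c) * x ^ (C1 + 1) * (n : ℝ) ^ (2 * k) := by ring
      _ ≤ (d / 2) * x ^ C1 * (n : ℝ) ^ (2 * k) := by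
          apply mul_le_mul_of_nonneg_right _ (by positivity)
          exact mul_le_mul hkc hxC (by positivity) (by positivity)
  have hfinal : d / 2 * x ^ C1 * (n : ℝ) ^ (2 * k) ≤ (numCopies H A : ℝ) := by
    have : d * x ^ C1 * (n : ℝ) ^ (2 * k)
        = d / 2 * x ^ C1 * (n : ℝ) ^ (2 * k) + d / 2 * x ^ C1 * (n : ℝ) ^ (2 * k) := by ring
    linarith
  refine le_trans ?_ hfinal
  apply mul_le_mul_of_nonneg_right _ (by positivity)
  exact mul_le_mul hcd2 hxC (by positivity) (by positivity)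

end Vale.Agent.Lib.P037.Robust
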