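import Vale.Agent.Lib.P037.Robust.Main
import Vale.Agent.Lib.P037.Rect.Final

/-!
P037 Robust: every pattern, hosts that are `(ε / 24)`-close to a host of bounded variation.
-/

namespace Vale.Agent.Lib.P037.Robust

open Vale.Agent.Lib.P037 Vale.Agent.Lib.P037.BV Vale.Agent.Lib.P037.Blow Vale.Agent.Lib.P037.Rect

/-- every pattern, hosts close to a host with at most `V n` vertical changes -/
theorem bv_allP {k : ℕ} (hk : 1 ≤ k) (H : Fin k → Fin k → Bool) :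
    ∃ (c0 : ℝ) (C : ℕ), 0 < c0 ∧ ∀ n : ℕ, 1 ≤ n → ∀ (A A0 : Fin n → Fin n → Bool) (V : ℝ), 0 ≤ V →
      (vchanges A0 : ℝ) ≤ V * n → ∀ ε : ℝ, 0 < ε → ε < 1 →
      (numDiff A A0 : ℝ) ≤ ε / 24 * (n : ℝ) ^ 2 → IsFar H A ε →
      c0 * (ε / (V + 1)) ^ C * (n : ℝ) ^ (2 * k) ≤ (numCopies H A : ℝ) := by
  obtain ⟨r, c, H0, φ, ψ, hr, hc, hH0, hφ, hφs, hψ, hψs, rfl⟩ := exists_core hk H
  set K : ℝ := ((r + c : ℕ) : ℝ) with hK
  have hK1 : (1 : ℝ) ≤ K := by
    have : 1 ≤ r + c := by omega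
    rw [hK]; exact_mod_cast this
  set c2 : ℝ := 1 / (4 * K * 16 ^ r) with hc2
  have hc2pos : 0 < c2 := by positivity
  have h8 : (1 : ℝ) ≤ 16 ^ r := one_le_pow₀ (by norm_num)
  have hc2le : c2 ≤ 1 := by
    rw [hc2, div_le_one (by positivity)]
    nlinarith
  have h2r : (1 : ℝ) ≤ 2 ^ (r + 1) := one_le_pow₀ (by norm_num)
  set c1 : ℝ := c2 ^ (r + c) / 2 ^ (r + 1) with hc1
  have hc1pos : 0 < c1 := by positivity
  have hc1le : c1 ≤ 1 := by
    rw [hc1, div_le_one (by positivity)]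
    exact (pow_le_one₀ hc2pos.le hc2le).trans h2r
  refine ⟨c1 ^ (2 ^ (2 * k - (r + c)) * (2 * k + 1))
        / (2 * (k.factorial : ℝ) ^ 2 * (4 * (k : ℝ) ^ 2 + 1) ^ (2 * k)),
      ((r + 1) * (r + c)) * (2 ^ (2 * k - (r + c)) * (2 * k + 1)), by positivity, ?_⟩
  intro n hn A A0 V hV hVA ε hε hε1 hclose hfar
  have hV1 : (1 : ℝ) ≤ V + 1 := by linarith
  have hx0 : 0 < ε / (V + 1) := by positivity
  have hx1 : ε / (V + 1) ≤ 1 := by
    rw [div_le_one (by linarith)]; linarith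
  have hfar0 : IsFarR H0 A ε := isFarR_of_blow H0 φ ψ hφ hφs hψ hψs A ε hfar
  have h1 := bv_hostsP hr hn H0 hH0 A A0 V hV hVA ε hε hε1 hclose hfar0
  apply transfer_pow hn H0 φ ψ hφ hφs hψ hψs A ε hε hfar c1 (ε / (V + 1)) ((r + 1) * (r + c))
    hc1pos hc1le hx0 hx1
  refine le_trans ?_ h1
  apply mul_le_mul_of_nonneg_right _ (by positivity)
  have h3 : c1 * (ε / (V + 1)) ^ ((r + 1) * (r + c))
      = (c2 * (ε / (V + 1)) ^ (r + 1)) ^ (r + c) / 2 ^ (r + 1) := by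
    rw [hc1, pow_mul, mul_pow]; ring
  rw [h3]
  apply div_le_div_of_nonneg_right _ (by positivity)
  apply pow_le_pow_left₀ (by positivity)
  have h4 : c2 * (ε / (V + 1)) ^ (r + 1)
      = ε ^ (r + 1) / (4 * K * (16 * (V + 1)) ^ r * (V + 1)) := by
    rw [hc2, div_pow, mul_pow, pow_succ (V + 1) r]
    field_simp
  rw [h4]
  apply div_le_div_of_nonneg_left (by positivity) (by positivity)
  have : 0 < 4 * K * (16 * (V + 1)) ^ r := by positivity
  nlinarith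

/-- combination of two bounds -/
private theorem combine (c c' : ℝ) (C C' : ℕ) (x y N : ℝ) (hc : 0 < c) (hc' : 0 < c') (hx0 : 0 < x)
    (hx1 : x ≤ 1) (hy : 0 ≤ y) (h : c * x ^ C * y ≤ N ∨ c' * x ^ C' * y ≤ N) :
    min c c' * x ^ (max C C') * y ≤ N := by
  rcases h with h | h
  · refine le_trans ?_ h
    apply mul_le_mul_of_nonneg_right _ hy
    exact mul_le_mul (min_le_left _ _) (pow_le_pow_of_le_one hx0.le hx1 (le_max_left _ _))
      (by positivity) hc.le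
  · refine le_trans ?_ h
    apply mul_le_mul_of_nonneg_right _ hy
    exact mul_le_mul (min_le_right _ _) (pow_le_pow_of_le_one hx0.le hx1 (le_max_right _ _))
      (by positivity) hc'.le

/-- every pattern, hosts close to a host with at most `V n` vertical or horizontal changes -/
theorem bv_all_symP {k : ℕ} (hk : 1 ≤ k) (H : Fin k → Fin k → Bool) :
    ∃ (c0 : ℝ) (C : ℕ), 0 < c0 ∧ ∀ n : ℕ, 1 ≤ n → ∀ (A A0 : Fin n → Fin n → Bool) (V : ℝ), 0 ≤ V →
      ((vchanges A0 : ℝ) ≤ V * n ∨ (vchanges (fun i j => A0 j i) : ℝ) ≤ V * n) →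
      ∀ ε : ℝ, 0 < ε → ε < 1 → (numDiff A A0 : ℝ) ≤ ε / 24 * (n : ℝ) ^ 2 → IsFar H A ε →
      c0 * (ε / (V + 1)) ^ C * (n : ℝ) ^ (2 * k) ≤ (numCopies H A : ℝ) := by
  obtain ⟨c, C, hc, h⟩ := bv_allP hk H
  obtain ⟨c', C', hc', h'⟩ := bv_allP hk (tr H)
  refine ⟨min c c', max C C', lt_min hc hc', ?_⟩
  intro n hn A A0 V hV hVA ε hε hε1 hclose hfar
  have hx0 : 0 < ε / (V + 1) := by positivity
  have hx1 : ε / (V + 1) ≤ 1 := by
    rw [div_le_one (by linarith)]; linarith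
  apply combine c c' C C' _ _ _ hc hc' hx0 hx1 (by positivity)
  rcases hVA with hVA | hVA
  · exact Or.inl (h n hn A A0 V hV hVA ε hε hε1 hclose hfar)
  · right
    rw [← numCopies_tr H A]
    exact h' n hn (tr A) (tr A0) V hV hVA ε hε hε1 (by rw [numDiff_tr]; exact hclose)
      (isFar_tr H A ε hfar)

end Vale.Agent.Lib.P037.Robust
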