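import Vale.Agent.Lib.P037.BV.AvgDiff
import Vale.Agent.Lib.P037.BV.AvgCopies

/-!
MODULE Q1 (P037 Robust).  FROZEN statement.  The within-block disagreement is stable under perturbation of the host.

ROUTE.  `mis L hL hLn A i j = #{σ : Fin L | A i j ≠ A (row n L (blk i) σ) j}`.  For Booleans, with `r := row n L (blk i) σ`,
`A i j ≠ A r j` implies `A i j ≠ A0 i j` or `A0 i j ≠ A0 r j` or `A0 r j ≠ A r j`.  Hence (`Set.ncard_union_le`, or indicators)
`mis A i j ≤ L * [A i j ≠ A0 i j] + mis A0 i j + #{σ | A (row (blk i) σ) j ≠ A0 (row (blk i) σ) j}`.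
Sum over `i, j`:
* first term: `L * numDiff A A0` (write `numDiff` = `ncard` of a set of pairs as a double sum of indicators; see the private
  lemma `ncard_prod_eq_sum` in `BV/AvgDiff.lean`, copy it if useful);
* third term: group the rows `i` by `q := blk i`; every fibre has at most `2 * L` elements (`BV.card_blk_le`), so the sum is
  `≤ 2 * L * ∑ q, ∑ σ, ∑ j, [A (row q σ) j ≠ A0 (row q σ) j]`, and `(q, σ) ↦ row n L q σ` is injective
  (`q * L + σ` with `σ < L` determines `q` and `σ`; see the private lemma `row_inj` in `BV/AvgCopies.lean`), so the triple sum is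
  `≤ numDiff A A0`.
-/

namespace Vale.Agent.Lib.P037.Robust

open Vale.Agent.Lib.P037 Vale.Agent.Lib.P037.BV

private theorem ncard_eq_sum {α : Type*} [Fintype α] (P : α → Prop) [DecidablePred P] :
    {a | P a}.ncard = ∑ a, if P a then 1 else 0 := by
  rw [Set.ncard_eq_toFinset_card', Set.toFinset_ofPred, Finset.card_filter]

private theorem div_row' (q a L : ℕ) (ha : a < L) : (q * L + a) / L = q := by
  rw [Nat.add_comm, Nat.add_mul_div_right _ _ (by omega), Nat.div_eq_of_lt ha, Nat.zero_add]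

theorem sum_mis_perturb {n : ℕ} (L : ℕ) (hL : 0 < L) (hLn : L ≤ n) (A A0 : Fin n → Fin n → Bool) :
    ∑ i, ∑ j, mis L hL hLn A i j
      ≤ ∑ i, ∑ j, mis L hL hLn A0 i j + 3 * L * numDiff A A0 := by
  classical
  set d : Fin n → Fin n → ℕ := fun i j => if A i j ≠ A0 i j then 1 else 0 with hd
  have hnd : numDiff A A0 = ∑ i, ∑ j, d i j := by
    unfold numDiff
    rw [ncard_eq_sum (fun q : Fin n × Fin n => A q.1 q.2 ≠ A0 q.1 q.2), Fintype.sum_prod_type]
  have hmis : ∀ (B : Fin n → Fin n → Bool) i j, mis L hL hLn B i j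
      = ∑ σ : Fin L, if B i j ≠ B (row n L (blk n L hL hLn i) σ) j then 1 else 0 := by
    intro B i j
    unfold mis
    exact ncard_eq_sum _
  have hbool : ∀ a a0 b b0 : Bool, (if a ≠ b then 1 else 0)
      ≤ (if a ≠ a0 then 1 else 0) + (if a0 ≠ b0 then 1 else 0) + (if b ≠ b0 then 1 else 0) := by
    decide
  have hpt : ∀ i j, mis L hL hLn A i j ≤ L * d i j + mis L hL hLn A0 i j
      + ∑ σ : Fin L, d (row n L (blk n L hL hLn i) σ) j := by
    intro i j
    rw [hmis A, hmis A0]
    have h1 : L * d i j = ∑ _σ : Fin L, d i j := by simp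
    rw [h1, ← Finset.sum_add_distrib, ← Finset.sum_add_distrib]
    exact Finset.sum_le_sum fun σ _ => hbool _ _ _ _
  set g : Fin (n / L) → ℕ := fun q => ∑ j, ∑ σ : Fin L, d (row n L q σ) j with hg
  have hfib : ∑ i, g (blk n L hL hLn i) ≤ 2 * L * ∑ q, g q := by
    rw [← Finset.sum_fiberwise Finset.univ (blk n L hL hLn) (fun i => g (blk n L hL hLn i)),
      Finset.mul_sum]
    refine Finset.sum_le_sum fun q _ => ?_
    have h1 : ∑ i ∈ Finset.univ.filter (fun i => blk n L hL hLn i = q), g (blk n L hL hLn i)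
        = (Finset.univ.filter (fun i => blk n L hL hLn i = q)).card * g q := by
      rw [Finset.sum_congr rfl (fun i hi => by rw [(Finset.mem_filter.1 hi).2]), Finset.sum_const,
        smul_eq_mul]
    rw [h1]
    apply Nat.mul_le_mul_right
    have h2 := card_blk_le n L hL hLn q
    rwa [Set.ncard_eq_toFinset_card', Set.toFinset_ofPred] at h2
  have hinj' : Function.Injective (fun p : Fin (n / L) × Fin L => row n L p.1 p.2) := by
    intro p p' h
    have h1 : p.1.val * L + p.2.val = p'.1.val * L + p'.2.val := congrArg Fin.val h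
    have h2 : p.1.val = p'.1.val := by
      have h3 := congrArg (· / L) h1
      simpa only [div_row' _ _ _ p.2.isLt, div_row' _ _ _ p'.2.isLt] using h3
    have h4 : p.2.val = p'.2.val := by
      rw [h2] at h1
      omega
    exact Prod.ext (Fin.ext h2) (Fin.ext h4)
  have hinj : ∑ q, g q ≤ ∑ i, ∑ j, d i j := by
    have h1 : ∑ q, g q = ∑ p : Fin (n / L) × Fin L, ∑ j, d (row n L p.1 p.2) j := by
      rw [Fintype.sum_prod_type]
      exact Finset.sum_congr rfl fun q _ => Finset.sum_comm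
    rw [h1]
    calc ∑ p : Fin (n / L) × Fin L, ∑ j, d (row n L p.1 p.2) j
        = ∑ i ∈ Finset.univ.image (fun p : Fin (n / L) × Fin L => row n L p.1 p.2), ∑ j, d i j :=
          (Finset.sum_image (f := fun i => ∑ j, d i j)
            (g := fun p : Fin (n / L) × Fin L => row n L p.1 p.2)
            (fun a _ b _ h => hinj' h)).symm
      _ ≤ ∑ i, ∑ j, d i j := Finset.sum_le_sum_of_subset (Finset.subset_univ _)
  have hT : ∑ i, g (blk n L hL hLn i) ≤ 2 * (L * ∑ i, ∑ j, d i j) := by
    calc ∑ i, g (blk n L hL hLn i) ≤ 2 * L * ∑ q, g q := hfib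
      _ ≤ 2 * L * ∑ i, ∑ j, d i j := Nat.mul_le_mul_left _ hinj
      _ = 2 * (L * ∑ i, ∑ j, d i j) := by ring
  calc ∑ i, ∑ j, mis L hL hLn A i j
      ≤ ∑ i, ∑ j, (L * d i j + mis L hL hLn A0 i j
          + ∑ σ : Fin L, d (row n L (blk n L hL hLn i) σ) j) :=
        Finset.sum_le_sum fun i _ => Finset.sum_le_sum fun j _ => hpt i j
    _ = L * (∑ i, ∑ j, d i j) + ∑ i, ∑ j, mis L hL hLn A0 i j + ∑ i, g (blk n L hL hLn i) := by
        simp only [Finset.sum_add_distrib, ← Finset.mul_sum]
        rfl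
    _ ≤ ∑ i, ∑ j, mis L hL hLn A0 i j + 3 * L * numDiff A A0 := by
        rw [hnd]
        have h3 : 3 * L * ∑ i, ∑ j, d i j = 3 * (L * ∑ i, ∑ j, d i j) := by ring
        omega

end Vale.Agent.Lib.P037.Robust
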